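import Mathlib

namespace Vale.Agent.P045

open Finset

variable {r : ℕ} {α : Type*} [DecidableEq α]

/-- pairwise disjoint edges -/
def IsMatch (M : Finset (Fin r → α)) : Prop :=
  ∀ e ∈ M, ∀ f ∈ M, e ≠ f → ∀ i, e i ≠ f i

theorem exists_max_match (hr : 0 < r) (E : Finset (Fin r → α)) :
    ∃ M ⊆ E, IsMatch M ∧ ∀ e ∈ E, ∃ f ∈ M, ∃ i, e i = f i := by
  classical
  have hne : (E.powerset.filter (fun M => IsMatch M)).Nonempty := by
    refine ⟨∅, ?_⟩
    rw [mem_filter, mem_powerset]
    exact ⟨empty_subset _, fun e he => absurd he (notMem_empty e)⟩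
  obtain ⟨M, hM, hmax⟩ := exists_max_image _ (fun M => M.card) hne
  rw [mem_filter, mem_powerset] at hM
  refine ⟨M, hM.1, hM.2, ?_⟩
  intro e he
  by_contra hcon
  have hdis : ∀ f ∈ M, ∀ i, e i ≠ f i := by
    intro f hf i hi
    exact hcon ⟨f, hf, i, hi⟩
  have heM : e ∉ M := fun h => hdis e h ⟨0, hr⟩ rfl
  have hins : insert e M ∈ E.powerset.filter (fun M => IsMatch M) := by
    rw [mem_filter, mem_powerset]
    refine ⟨insert_subset he hM.1, ?_⟩
    intro a ha b hb hab i
    rw [mem_insert] at ha hb
    rcases ha with rfl | ha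
    · rcases hb with rfl | hb
      · exact absurd rfl hab
      · exact hdis b hb i
    · rcases hb with rfl | hb
      · exact fun h => hdis a ha i h.symm
      · exact hM.2 a ha b hb hab i
  have := hmax _ hins
  rw [card_insert_of_notMem heM] at this
  omega

theorem card_meet_le (E : Finset (Fin r → α)) (D : ℕ)
    (hD : ∀ e ∈ E, ∀ i, (E.filter (fun f => f i = e i)).card ≤ D)
    (f : Fin r → α) (hf : f ∈ E) :
    (E.filter (fun e => ∃ i, e i = f i)).card ≤ r * (D - 1) + 1 := by
  classical
  have hsub : E.filter (fun e => ∃ i, e i = f i) ⊆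
      insert f ((univ : Finset (Fin r)).biUnion
        (fun i => (E.filter (fun e => e i = f i)).erase f)) := by
    intro e he
    rw [mem_filter] at he
    obtain ⟨heE, i, hi⟩ := he
    rw [mem_insert]
    by_cases hef : e = f
    · exact Or.inl hef
    · right
      rw [mem_biUnion]
      exact ⟨i, mem_univ _, mem_erase.2 ⟨hef, mem_filter.2 ⟨heE, hi⟩⟩⟩
  have h1 := card_le_card hsub
  have h2 := card_insert_le f ((univ : Finset (Fin r)).biUnion
        (fun i => (E.filter (fun e => e i = f i)).erase f))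
  have h3 : ((univ : Finset (Fin r)).biUnion
        (fun i => (E.filter (fun e => e i = f i)).erase f)).card ≤ r * (D - 1) := by
    refine le_trans card_biUnion_le ?_
    have : ∀ i ∈ (univ : Finset (Fin r)),
        ((E.filter (fun e => e i = f i)).erase f).card ≤ D - 1 := by
      intro i _
      have hmem : f ∈ E.filter (fun e => e i = f i) := mem_filter.2 ⟨hf, rfl⟩
      rw [card_erase_of_mem hmem]
      have := hD f hf i
      omega
    refine le_trans (sum_le_sum this) ?_
    simp
  omega

theorem ryser_degree (hr : 0 < r) (E : Finset (Fin r → α)) (D δ : ℕ) (i0 : Fin r)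
    (hD : ∀ e ∈ E, ∀ i, (E.filter (fun f => f i = e i)).card ≤ D)
    (hδ : ∀ e ∈ E, δ ≤ (E.filter (fun f => f i0 = e i0)).card)
    (hcond : r * (D - 1) + 1 ≤ (r - 1) * δ) :
    ∃ C : Finset (Fin r × α), ∃ M ⊆ E, IsMatch M ∧ (∀ e ∈ E, ∃ i, (i, e i) ∈ C) ∧
      C.card ≤ (r - 1) * M.card := by
  classical
  obtain ⟨M, hME, hM, hmax⟩ := exists_max_match hr E
  refine ⟨E.image (fun e => (i0, e i0)), M, hME, hM, ?_, ?_⟩
  · intro e he
    exact ⟨i0, mem_image_of_mem _ he⟩
  · -- |E| ≤ |M| (r (D-1) + 1)
    have hE1 : E.card ≤ M.card * (r * (D - 1) + 1) := by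
      have hsub : E ⊆ M.biUnion (fun f => E.filter (fun e => ∃ i, e i = f i)) := by
        intro e he
        obtain ⟨f, hf, i, hi⟩ := hmax e he
        rw [mem_biUnion]
        exact ⟨f, hf, mem_filter.2 ⟨he, i, hi⟩⟩
      refine le_trans (card_le_card hsub) (le_trans card_biUnion_le ?_)
      refine le_trans (sum_le_sum (fun f hf => card_meet_le E D hD f (hME hf))) ?_
      simp
    -- δ |C| ≤ |E|
    have hE2 : δ * (E.image (fun e => (i0, e i0))).card ≤ E.card := by
      rw [card_eq_sum_card_image (fun e : Fin r → α => (i0, e i0)) E]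
      have : ∀ b ∈ E.image (fun e : Fin r → α => (i0, e i0)),
          δ ≤ (E.filter (fun e => (i0, e i0) = b)).card := by
        intro b hb
        rw [mem_image] at hb
        obtain ⟨e, he, rfl⟩ := hb
        refine le_trans (hδ e he) (le_of_eq ?_)
        congr 1
        ext f
        simp
      refine le_trans ?_ (sum_le_sum this)
      simp [mul_comm]
    have hδpos : 0 < δ := by
      rcases Nat.eq_zero_or_pos δ with h | h
      · subst h; omega
      · exact h
    have h3 : δ * (E.image (fun e => (i0, e i0))).card ≤ δ * ((r - 1) * M.card) := by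
      calc δ * (E.image (fun e => (i0, e i0))).card ≤ E.card := hE2
        _ ≤ M.card * (r * (D - 1) + 1) := hE1
        _ ≤ M.card * ((r - 1) * δ) := Nat.mul_le_mul_left _ hcond
        _ = δ * ((r - 1) * M.card) := by ring
    exact Nat.le_of_mul_le_mul_left h3 hδpos

end Vale.Agent.P045
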